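import Mathlib

/-!
# P030, the 2-adic place: the Hermite row basis

`hm α β γ n0 n1 n2 i` (`i < D`, `n0 + n1 + n2 ≤ D`) is the family
`(X-α)^i (X-β)^n1 (X-γ)^n2` (`i < n0`), `(X-α)^n0 (X-β)^(i-n0) (X-γ)^n2` (`n0 ≤ i < n0+n1`),
`(X-α)^n0 (X-β)^n1 (X-γ)^(i-n0-n1)`; its coefficient determinant is
`(α-β)^(n0 n1) (α-γ)^(n0 n2) (β-γ)^(n1 n2)`.
-/

open Polynomial Finset

namespace Vale.Agent.P030.H721

variable {R : Type*} [CommRing R]

/-- coefficient matrix -/
def cm (n : ℕ) (p : ℕ → R[X]) : Matrix (Fin n) (Fin n) R :=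
  Matrix.of fun i j => (p i).coeff j

theorem det_cm_monic (n : ℕ) (p : ℕ → R[X]) (hd : ∀ i < n, (p i).natDegree = i)
    (hm : ∀ i < n, (p i).Monic) : (cm n p).det = 1 := by
  have h := Matrix.det_matrixOfPolynomials (fun i : Fin n => p i) (fun i => hd i i.2)
    (fun i => hm i i.2)
  rw [← Matrix.det_transpose]
  exact h

/-- Taylor shift does not change the determinant -/
theorem det_cm_taylor (n : ℕ) (p : ℕ → R[X]) (hd : ∀ i < n, (p i).natDegree < n) (r : R) :
    (cm n fun i => taylor r (p i)).det = (cm n p).det := by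
  have key : (cm n fun i => taylor r (p i)) = cm n p * cm n fun i => (X + C r) ^ i := by
    ext i j
    rw [Matrix.mul_apply]
    simp only [cm, Matrix.of_apply]
    have h1 : p i = ∑ k ∈ range n, C ((p i).coeff k) * X ^ k :=
      as_sum_range_C_mul_X_pow' _ (hd i i.2)
    conv_lhs => rw [h1]
    rw [map_sum, finsetSum_coeff, ← Fin.sum_univ_eq_sum_range
      (fun k => (taylor r (C ((p i).coeff k) * X ^ k)).coeff (j : ℕ)) n]
    refine sum_congr rfl fun k _ => ?_
    rw [taylor_mul, taylor_C, taylor_X_pow, coeff_C_mul]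
  rw [key, Matrix.det_mul]
  nontriviality R
  rw [det_cm_monic n (fun i => (X + C r) ^ i) (fun i _ => by
    rw [(monic_X_add_C r).natDegree_pow, natDegree_X_add_C, mul_one])
    (fun i _ => (monic_X_add_C r).pow i), mul_one]

/-- block step: `p i = X^i q` for `i < m`, `p (m+k) = X^m g_k` -/
theorem det_cm_block (m n : ℕ) (q : R[X]) (g : ℕ → R[X]) :
    (cm (m + n) fun i => if i < m then X ^ i * q else X ^ m * g (i - m)).det
      = q.coeff 0 ^ m * (cm n g).det := by
  set M := cm (m + n) fun i => if i < m then X ^ i * q else X ^ m * g (i - m) with hM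
  have h1 : M.det = (M.submatrix (finSumFinEquiv (m := m) (n := n))
      (finSumFinEquiv (m := m) (n := n))).det := (Matrix.det_submatrix_equiv_self _ _).symm
  have h2 : M.submatrix (finSumFinEquiv (m := m) (n := n)) (finSumFinEquiv (m := m) (n := n))
      = Matrix.fromBlocks (Matrix.of fun i j : Fin m => (X ^ (i : ℕ) * q).coeff j)
          (Matrix.of fun (i : Fin m) (j : Fin n) => (X ^ (i : ℕ) * q).coeff (m + j)) 0
          (cm n g) := by
    ext i j
    rcases i with i | i <;> rcases j with j | j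
    · simp [hM, cm]
    · simp [hM, cm]
    · have : (j : ℕ) < m := j.2
      simp [hM, cm, coeff_X_pow_mul', this]
    · simp [hM, cm, coeff_X_pow_mul']
  rw [h1, h2, Matrix.det_fromBlocks_zero₂₁]
  congr 1
  rw [Matrix.det_of_isUpperTriangular]
  · simp [coeff_X_pow_mul']
  · intro i j hij
    have h : (j : ℕ) < (i : ℕ) := hij
    have h' : ¬ (i : ℕ) ≤ (j : ℕ) := by omega
    rw [Matrix.of_apply, coeff_X_pow_mul', if_neg h']

/-- the Hermite family -/
noncomputable def hm (α β γ : R) (n0 n1 n2 i : ℕ) : R[X] :=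
  if i < n0 then (X - C α) ^ i * ((X - C β) ^ n1 * (X - C γ) ^ n2)
  else (X - C α) ^ n0 * (if i - n0 < n1 then (X - C β) ^ (i - n0) * (X - C γ) ^ n2
    else (X - C β) ^ n1 * (X - C γ) ^ (i - n0 - n1))

theorem natDegree_le_prod (a b : R) (m n : ℕ) :
    ((X - C a) ^ m * (X - C b) ^ n).natDegree ≤ m + n := by
  refine natDegree_mul_le.trans (add_le_add ?_ ?_) <;>
  · refine natDegree_pow_le.trans ?_
    exact (Nat.mul_le_mul_left _ (natDegree_X_sub_C_le _)).trans (by simp)

theorem hm_natDegree (α β γ : R) {n0 n1 n2 D : ℕ} (h : n0 + n1 + n2 ≤ D) {i : ℕ} (hi : i < D) :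
    (hm α β γ n0 n1 n2 i).natDegree < D := by
  have hp : ∀ (a : R) (m : ℕ), ((X - C a) ^ m).natDegree ≤ m := fun a m => by
    refine natDegree_pow_le.trans ?_
    exact (Nat.mul_le_mul_left _ (natDegree_X_sub_C_le _)).trans (by simp)
  unfold hm
  split_ifs with h1 h2
  · refine lt_of_le_of_lt (natDegree_mul_le.trans (add_le_add (hp _ _)
      (natDegree_le_prod _ _ _ _))) (by omega)
  · refine lt_of_le_of_lt (natDegree_mul_le.trans (add_le_add (hp _ _)
      (natDegree_le_prod _ _ _ _))) (by omega)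
  · refine lt_of_le_of_lt (natDegree_mul_le.trans (add_le_add (hp _ _)
      (natDegree_le_prod _ _ _ _))) (by omega)

/-- two nodes -/
theorem det_two (β γ : R) (n1 n2 n : ℕ) (h : n2 ≤ n) :
    (cm (n1 + n) fun i => if i < n1 then (X - C β) ^ i * (X - C γ) ^ n2
      else (X - C β) ^ n1 * (X - C γ) ^ (i - n1)).det = (β - γ) ^ (n1 * n2) := by
  rw [← det_cm_taylor (n1 + n) _ _ β]
  · have h1 : (fun i => taylor β (if i < n1 then (X - C β) ^ i * (X - C γ) ^ n2
        else (X - C β) ^ n1 * (X - C γ) ^ (i - n1)))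
        = fun i => if i < n1 then X ^ i * (X - C (γ - β)) ^ n2
          else X ^ n1 * (fun k => (X - C (γ - β)) ^ k) (i - n1) := by
      have ha : taylor β (X - C β) = X := by
        rw [map_sub, taylor_X, taylor_C]; ring
      have hb : taylor β (X - C γ) = X - C (γ - β) := by
        rw [map_sub, taylor_X, taylor_C, C_sub]; ring
      have hpow : ∀ (p : R[X]) (k : ℕ), taylor β (p ^ k) = (taylor β p) ^ k := fun p k => by
        exact pow_comp p _ k
      funext i
      split_ifs
      · rw [taylor_mul, hpow, hpow, ha, hb]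
      · rw [taylor_mul, hpow, hpow, ha, hb]
    rw [h1, det_cm_block]
    nontriviality R
    rw [det_cm_monic n (fun k => (X - C (γ - β)) ^ k) (fun i _ => by
      rw [(monic_X_sub_C _).natDegree_pow, natDegree_X_sub_C, mul_one])
      (fun i _ => (monic_X_sub_C _).pow i), mul_one]
    rw [coeff_zero_eq_eval_zero, eval_pow, eval_sub, eval_X, eval_C, ← pow_mul, mul_comm n2 n1]
    congr 1
    ring
  · intro i hi
    split_ifs with h1
    · exact lt_of_le_of_lt (natDegree_le_prod _ _ _ _) (by omega)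
    · exact lt_of_le_of_lt (natDegree_le_prod _ _ _ _) (by omega)

/-- **the determinant of the Hermite basis** -/
theorem det_hm (α β γ : R) (n0 n1 n2 D : ℕ) (h : n0 + n1 + n2 ≤ D) :
    (Matrix.of fun i j : Fin D => (hm α β γ n0 n1 n2 i).coeff j).det
      = (α - β) ^ (n0 * n1) * (α - γ) ^ (n0 * n2) * (β - γ) ^ (n1 * n2) := by
  obtain ⟨n, rfl⟩ : ∃ n, D = n0 + (n1 + n) := ⟨D - n0 - n1, by omega⟩
  have hn : n2 ≤ n := by omega
  change (cm (n0 + (n1 + n)) (hm α β γ n0 n1 n2)).det = _
  rw [← det_cm_taylor _ _ (fun i hi => hm_natDegree α β γ h hi) α]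
  have ha : taylor α (X - C α) = X := by
    rw [map_sub, taylor_X, taylor_C]; ring
  have hb : ∀ b : R, taylor α (X - C b) = X - C (b - α) := fun b => by
    rw [map_sub, taylor_X, taylor_C, C_sub]; ring
  have hpow : ∀ (p : R[X]) (k : ℕ), taylor α (p ^ k) = (taylor α p) ^ k := fun p k =>
    pow_comp p _ k
  have h1 : (fun i => taylor α (hm α β γ n0 n1 n2 i))
      = fun i => if i < n0 then X ^ i * ((X - C (β - α)) ^ n1 * (X - C (γ - α)) ^ n2)
        else X ^ n0 * (fun k => if k < n1 then (X - C (β - α)) ^ k * (X - C (γ - α)) ^ n2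
          else (X - C (β - α)) ^ n1 * (X - C (γ - α)) ^ (k - n1)) (i - n0) := by
    funext i
    unfold hm
    dsimp only
    split_ifs
    · rw [taylor_mul, taylor_mul, hpow, hpow, hpow, ha, hb, hb]
    · rw [taylor_mul, taylor_mul, hpow, hpow, hpow, ha, hb, hb]
    · rw [taylor_mul, taylor_mul, hpow, hpow, hpow, ha, hb, hb]
  rw [h1]
  refine (det_cm_block n0 (n1 + n) ((X - C (β - α)) ^ n1 * (X - C (γ - α)) ^ n2)
    (fun k => if k < n1 then (X - C (β - α)) ^ k * (X - C (γ - α)) ^ n2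
          else (X - C (β - α)) ^ n1 * (X - C (γ - α)) ^ (k - n1))).trans ?_
  rw [det_two _ _ _ _ _ hn, coeff_zero_eq_eval_zero]
  simp only [eval_mul, eval_pow, eval_sub, eval_X, eval_C, zero_sub, neg_sub]
  rw [mul_pow, ← pow_mul, ← pow_mul, mul_comm n1 n0, mul_comm n2 n0]
  congr 2
  ring

end Vale.Agent.P030.H721
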