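import Mathlib
import Vale.Agent.P030.H721.Herm

/-!
# P030, the 2-adic place: the Hermite rows on the four circles

`BQ C f : ‖coeff n f‖ ≤ C 4^n` (Gauss norm on `|t| = 1/4`).
-/

open Polynomial Finset

namespace Vale.Agent.P030.H721

/-! ### homogeneous evaluation -/

section hev
variable {K A : Type*} [CommRing K] [CommRing A] [Algebra K A]

/-- `hev N h x s = Σ_{j ≤ N} h_j x^j s^(N-j)` -/
noncomputable def hev (N : ℕ) (h : K[X]) (x s : A) : A :=
  ∑ j ∈ range (N + 1), algebraMap K A (h.coeff j) * (x ^ j * s ^ (N - j))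

theorem hev_eq (N : ℕ) (h : K[X]) (x s : A) :
    hev N h x s = MvPolynomial.aeval ![x, s] (h.homogenize N) := by
  unfold hev Polynomial.homogenize
  rw [map_sum, Finset.Nat.sum_antidiagonal_eq_sum_range_succ_mk]
  refine sum_congr rfl fun j _ => ?_
  rw [MvPolynomial.aeval_monomial]
  congr 1
  rw [Finsupp.prod_fintype _ _ (by simp)]
  simp

theorem hev_mul {M N : ℕ} (p q : K[X]) (x s : A) (hp : p.natDegree ≤ M) (hq : q.natDegree ≤ N) :
    hev (M + N) (p * q) x s = hev M p x s * hev N q x s := by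
  rw [hev_eq, hev_eq, hev_eq, homogenize_mul p q hp hq, map_mul]

theorem hev_one (N : ℕ) (x s : A) : hev N (1 : K[X]) x s = s ^ N := by
  rw [hev_eq, homogenize_one]
  simp

theorem hev_lin (a : K) (x s : A) : hev 1 (X - C a) x s = x - algebraMap K A a * s := by
  unfold hev
  rw [sum_range_succ, sum_range_one]
  simp
  ring

theorem natDegree_lin_pow (a : K) (m : ℕ) : ((X - C a) ^ m).natDegree ≤ m := by
  refine natDegree_pow_le.trans ?_
  exact (Nat.mul_le_mul_left _ (natDegree_X_sub_C_le _)).trans (by simp)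

theorem hev_lin_pow (a : K) (m : ℕ) (x s : A) :
    hev m ((X - C a) ^ m) x s = (x - algebraMap K A a * s) ^ m := by
  induction m with
  | zero => simpa using hev_one 0 x s
  | succ m ih =>
    rw [pow_succ, hev_mul _ _ _ _ (natDegree_lin_pow a m) (natDegree_X_sub_C_le _), ih, hev_lin,
      pow_succ]

theorem hev_three (α β γ : K) (a b e r : ℕ) (x s : A) :
    hev (a + (b + e) + r) ((X - C α) ^ a * ((X - C β) ^ b * (X - C γ) ^ e)) x s
      = (x - algebraMap K A α * s) ^ a * ((x - algebraMap K A β * s) ^ b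
        * (x - algebraMap K A γ * s) ^ e) * s ^ r := by
  have h1 : (X - C α) ^ a * ((X - C β) ^ b * (X - C γ) ^ e)
      = ((X - C α) ^ a * ((X - C β) ^ b * (X - C γ) ^ e)) * (1 : K[X]) := (mul_one _).symm
  have h2 : ((X - C α) ^ a * ((X - C β) ^ b * (X - C γ) ^ e)).natDegree ≤ a + (b + e) :=
    natDegree_mul_le.trans (add_le_add (natDegree_lin_pow _ _) (natDegree_le_prod _ _ _ _))
  rw [h1, hev_mul _ _ _ _ h2 (by simp), hev_mul _ _ _ _ (natDegree_lin_pow _ _)
    (natDegree_le_prod _ _ _ _), hev_mul _ _ _ _ (natDegree_lin_pow _ _)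
    (natDegree_lin_pow _ _), hev_one, hev_lin_pow, hev_lin_pow, hev_lin_pow]

end hev

/-! ### Gauss norm on `|t| = 1/4` -/

section bq
set_option linter.unusedSectionVars false
variable {K : Type*} [NormedField K] [IsUltrametricDist K]

/-- `‖coeff n f‖ ≤ C 4^n` -/
def BQ (c : ℝ) (f : PowerSeries K) : Prop := ∀ n, ‖PowerSeries.coeff n f‖ ≤ c * 4 ^ n

theorem BQ.nonneg {c : ℝ} {f : PowerSeries K} (h : BQ c f) : 0 ≤ c := by
  have := (norm_nonneg _).trans (h 0)
  simpa using this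

theorem BQ.mono {c d : ℝ} {f : PowerSeries K} (h : BQ c f) (hcd : c ≤ d) : BQ d f := fun n =>
  (h n).trans (mul_le_mul_of_nonneg_right hcd (by positivity))

theorem BQ.mul {c d : ℝ} {f g : PowerSeries K} (hf : BQ c f) (hg : BQ d g) :
    BQ (c * d) (f * g) := by
  intro n
  rw [PowerSeries.coeff_mul]
  refine IsUltrametricDist.norm_sum_le_of_forall_le_of_nonneg
    (mul_nonneg (mul_nonneg hf.nonneg hg.nonneg) (by positivity)) fun p hp => ?_
  rw [HasAntidiagonal.mem_antidiagonal] at hp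
  rw [norm_mul]
  calc _ ≤ (c * 4 ^ p.1) * (d * 4 ^ p.2) :=
        mul_le_mul (hf _) (hg _) (norm_nonneg _) (mul_nonneg hf.nonneg (by positivity))
    _ = c * d * 4 ^ (p.1 + p.2) := by rw [pow_add]; ring
    _ = _ := by rw [hp]

theorem BQ.one : BQ 1 (1 : PowerSeries K) := by
  intro n
  rw [PowerSeries.coeff_one]
  split_ifs with h
  · simp [h]
  · simp

theorem BQ.pow {c : ℝ} {f : PowerSeries K} (hf : BQ c f) (m : ℕ) : BQ (c ^ m) (f ^ m) := by
  induction m with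
  | zero => simpa using BQ.one
  | succ m ih => rw [pow_succ, pow_succ]; exact ih.mul hf

theorem BQ.const (a : K) : BQ ‖a‖ (PowerSeries.C a) := by
  intro n
  rw [PowerSeries.coeff_C]
  split_ifs with h
  · simp [h]
  · simp only [norm_zero]; positivity

theorem BQ.X : BQ (1 / 4) (PowerSeries.X : PowerSeries K) := by
  intro n
  rw [PowerSeries.coeff_X]
  split_ifs with h
  · simp [h]
  · simp only [norm_zero]; positivity

theorem BQ.of_one {f : PowerSeries K} (h : ∀ n, ‖PowerSeries.coeff n f‖ ≤ 1) : BQ 1 f := fun n =>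
  (h n).trans (by rw [one_mul]; exact one_le_pow₀ (by norm_num))

theorem BQ.add {c : ℝ} {f g : PowerSeries K} (hf : BQ c f) (hg : BQ c g) : BQ c (f + g) := by
  intro n
  rw [map_add]
  exact (IsUltrametricDist.norm_add_le_max _ _).trans (max_le (hf n) (hg n))

theorem BQ.neg {c : ℝ} {f : PowerSeries K} (hf : BQ c f) : BQ c (-f) := by
  intro n
  rw [map_neg, norm_neg]
  exact hf n

/-- the row potential of the Hermite rows -/
def Apot (n0 n1 n2 i : ℕ) : ℤ :=
  if i < n0 then 2 * ((n0 : ℤ) - i)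
  else if i - n0 < n1 then (n1 : ℤ) - (i - n0 : ℕ)
  else if i - n0 - n1 < n2 then 2 * ((n2 : ℤ) - (i - n0 - n1 : ℕ))
  else 3 * ((i - n0 - n1 : ℕ) - (n2 : ℤ))

theorem zp (k : ℕ) : ((2 : ℝ) ^ k) = (2 : ℝ) ^ (k : ℤ) := (zpow_natCast _ _).symm
theorem zq (k : ℕ) : ((1 / 4 : ℝ) ^ k) = (2 : ℝ) ^ (-2 * (k : ℤ)) := by
  rw [zpow_mul, zpow_natCast]
  norm_num
theorem zh (k : ℕ) : ((1 / 2 : ℝ) ^ k) = (2 : ℝ) ^ (-(k : ℤ)) := by
  rw [zpow_neg, zpow_natCast, one_div, inv_pow]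

/-- three factors with norms `2^p, 2^q, 2^r` -/
theorem bq_hm {p q r : ℤ} {α β γ : K} {S : PowerSeries K}
    (h0 : BQ ((2 : ℝ) ^ p) (S - PowerSeries.C α)) (h1 : BQ ((2 : ℝ) ^ q) (S - PowerSeries.C β))
    (h2 : BQ ((2 : ℝ) ^ r) (S - PowerSeries.C γ)) (n0 n1 n2 i : ℕ) :
    BQ ((2 : ℝ) ^ (if i < n0 then p * i + q * n1 + r * n2
      else if i - n0 < n1 then p * n0 + q * (i - n0 : ℕ) + r * n2
      else p * n0 + q * n1 + r * (i - n0 - n1 : ℕ)))
      (aeval S (hm α β γ n0 n1 n2 i)) := by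
  have key : ∀ a b e : ℕ, BQ ((2 : ℝ) ^ (p * a + q * b + r * e))
      ((S - PowerSeries.C α) ^ a * ((S - PowerSeries.C β) ^ b * (S - PowerSeries.C γ) ^ e)) := by
    intro a b e
    have := (h0.pow a).mul ((h1.pow b).mul (h2.pow e))
    rw [← zpow_natCast, ← zpow_natCast, ← zpow_natCast, ← zpow_mul, ← zpow_mul, ← zpow_mul,
      ← zpow_add₀ (by norm_num), ← zpow_add₀ (by norm_num)] at this
    rw [show p * (a : ℤ) + q * b + r * e = p * a + (q * b + r * e) by ring]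
    exact this
  have hC : ∀ a : K, aeval S (C a) = PowerSeries.C a := fun a => by
    rw [aeval_C]; rfl
  unfold hm
  split_ifs with c1 c2
  · simpa [hC] using key i n1 n2
  · simpa [hC] using key n0 (i - n0) n2
  · simpa [hC] using key n0 n1 (i - n0 - n1)

/-! ### the four cusps (`α, β, γ = 1, 1/2, 0`) -/

theorem hc2 (h2 : ‖(2 : K)‖ = 1 / 2) : PowerSeries.C (1 / 2 : K) * 2 = 1 := by
  have h20 : (2 : K) ≠ 0 := by
    intro h; rw [h, norm_zero] at h2; norm_num at h2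
  rw [show (2 : PowerSeries K) = PowerSeries.C (2 : K) from (map_ofNat PowerSeries.C 2).symm,
    ← map_mul, one_div, inv_mul_cancel₀ h20, map_one]

theorem bq_half (h2 : ‖(2 : K)‖ = 1 / 2) : BQ (2 : ℝ) (PowerSeries.C (1 / 2 : K)) := by
  have := BQ.const (1 / 2 : K)
  rwa [norm_div, norm_one, h2, one_div_one_div] at this

theorem bq_opX : BQ (1 : ℝ) (1 + PowerSeries.X : PowerSeries K) :=
  BQ.one.add (BQ.X.mono (by norm_num))

theorem bq_omX : BQ (1 : ℝ) (1 - PowerSeries.X : PowerSeries K) := by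
  rw [sub_eq_add_neg]
  exact BQ.one.add (BQ.X.neg.mono (by norm_num))

/-- `W_c` for `S - 1/2` (monic) -/
def Wc (n0 n1 n2 : ℕ) : Fin 4 → ℤ
  | 0 => -2 * n0 + n1
  | 1 => n0 - n1 + n2
  | 2 => n1 - 2 * n2
  | 3 => 3 * (n0 + n1 + n2)

/-- the four local expansions, from the geometric series `G = 1/(1-X)` -/
theorem bq_cusp0 (n0 n1 n2 i : ℕ) (h2 : ‖(2 : K)‖ = 1 / 2) {G : PowerSeries K}
    (hG : (1 - PowerSeries.X) * G = 1) (hG1 : ∀ n, ‖PowerSeries.coeff n G‖ ≤ 1) :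
    BQ ((2 : ℝ) ^ (Apot n0 n1 n2 i + Wc n0 n1 n2 0))
      (aeval G (hm (1 : K) (1 / 2) 0 n0 n1 n2 i)) := by
  have hs : BQ 1 G := BQ.of_one hG1
  have hc := hc2 h2
  have e0 : G - PowerSeries.C 1 = PowerSeries.X * G := by
    rw [map_one]
    linear_combination hG
  have e1 : G - PowerSeries.C (1 / 2 : K)
      = PowerSeries.C (1 / 2 : K) * ((1 + PowerSeries.X) * G) := by
    linear_combination (-G) * hc + (PowerSeries.C (1 / 2 : K)) * hG
  have h0 : BQ ((2 : ℝ) ^ (-2 : ℤ)) (G - PowerSeries.C (1 : K)) := by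
    rw [e0]
    exact (BQ.X.mul hs).mono (by norm_num)
  have h1 : BQ ((2 : ℝ) ^ (1 : ℤ)) (G - PowerSeries.C (1 / 2 : K)) := by
    rw [e1]
    exact ((bq_half h2).mul (bq_opX.mul hs)).mono (by norm_num)
  have h3 : BQ ((2 : ℝ) ^ (0 : ℤ)) (G - PowerSeries.C (0 : K)) := by
    rw [map_zero, sub_zero]
    exact hs.mono (by norm_num)
  refine (bq_hm h0 h1 h3 n0 n1 n2 i).mono (zpow_le_zpow_right₀ (by norm_num) ?_)
  unfold Apot Wc
  split_ifs <;> push_cast <;> omega

theorem bq_cusp1 (n0 n1 n2 i : ℕ) (h2 : ‖(2 : K)‖ = 1 / 2) :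
    BQ ((2 : ℝ) ^ (Apot n0 n1 n2 i + Wc n0 n1 n2 1))
      (aeval (PowerSeries.C (1 / 2 : K) * (1 - PowerSeries.X))
        (hm (1 : K) (1 / 2) 0 n0 n1 n2 i)) := by
  have hc := hc2 h2
  have e0 : PowerSeries.C (1 / 2 : K) * (1 - PowerSeries.X) - PowerSeries.C 1
      = -(PowerSeries.C (1 / 2 : K) * (1 + PowerSeries.X)) := by
    rw [map_one]
    linear_combination hc
  have e1 : PowerSeries.C (1 / 2 : K) * (1 - PowerSeries.X) - PowerSeries.C (1 / 2 : K)
      = -(PowerSeries.C (1 / 2 : K) * PowerSeries.X) := by ring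
  have h0 : BQ ((2 : ℝ) ^ (1 : ℤ))
      (PowerSeries.C (1 / 2 : K) * (1 - PowerSeries.X) - PowerSeries.C (1 : K)) := by
    rw [e0]
    exact ((bq_half h2).mul bq_opX).neg.mono (by norm_num)
  have h1 : BQ ((2 : ℝ) ^ (-1 : ℤ))
      (PowerSeries.C (1 / 2 : K) * (1 - PowerSeries.X) - PowerSeries.C (1 / 2 : K)) := by
    rw [e1]
    exact ((bq_half h2).mul BQ.X).neg.mono (by norm_num)
  have h3 : BQ ((2 : ℝ) ^ (1 : ℤ))
      (PowerSeries.C (1 / 2 : K) * (1 - PowerSeries.X) - PowerSeries.C (0 : K)) := by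
    rw [map_zero, sub_zero]
    exact ((bq_half h2).mul bq_omX).mono (by norm_num)
  refine (bq_hm h0 h1 h3 n0 n1 n2 i).mono (zpow_le_zpow_right₀ (by norm_num) ?_)
  unfold Apot Wc
  split_ifs <;> push_cast <;> omega

theorem bq_cusp2 (n0 n1 n2 i : ℕ) (h2 : ‖(2 : K)‖ = 1 / 2) {G : PowerSeries K}
    (hG : (1 - PowerSeries.X) * G = 1) (hG1 : ∀ n, ‖PowerSeries.coeff n G‖ ≤ 1) :
    BQ ((2 : ℝ) ^ (Apot n0 n1 n2 i + Wc n0 n1 n2 2))
      (aeval (-(PowerSeries.X * G)) (hm (1 : K) (1 / 2) 0 n0 n1 n2 i)) := by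
  have hs : BQ 1 G := BQ.of_one hG1
  have hc := hc2 h2
  have e0 : -(PowerSeries.X * G) - PowerSeries.C 1 = -G := by
    rw [map_one]
    linear_combination hG
  have e1 : -(PowerSeries.X * G) - PowerSeries.C (1 / 2 : K)
      = -(PowerSeries.C (1 / 2 : K) * ((1 + PowerSeries.X) * G)) := by
    linear_combination (PowerSeries.X * G) * hc + (PowerSeries.C (1 / 2 : K)) * hG
  have h0 : BQ ((2 : ℝ) ^ (0 : ℤ)) (-(PowerSeries.X * G) - PowerSeries.C (1 : K)) := by
    rw [e0]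
    exact hs.neg.mono (by norm_num)
  have h1 : BQ ((2 : ℝ) ^ (1 : ℤ)) (-(PowerSeries.X * G) - PowerSeries.C (1 / 2 : K)) := by
    rw [e1]
    exact ((bq_half h2).mul (bq_opX.mul hs)).neg.mono (by norm_num)
  have h3 : BQ ((2 : ℝ) ^ (-2 : ℤ)) (-(PowerSeries.X * G) - PowerSeries.C (0 : K)) := by
    rw [map_zero, sub_zero]
    exact (BQ.X.mul hs).neg.mono (by norm_num)
  refine (bq_hm h0 h1 h3 n0 n1 n2 i).mono (zpow_le_zpow_right₀ (by norm_num) ?_)
  unfold Apot Wc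
  split_ifs <;> push_cast <;> omega

/-- the cusp `c3` (with the factor `t^(D-1)`) -/
theorem bq_cusp3 (n0 n1 n2 D i : ℕ) (hD : n0 + n1 + n2 ≤ D) (hi : i < D)
    (h2 : ‖(2 : K)‖ = 1 / 2) :
    BQ ((2 : ℝ) ^ (Apot n0 n1 n2 i + Wc n0 n1 n2 3 - 2 * ((D : ℤ) - 1)))
      (hev (D - 1) (hm (1 : K) (1 / 2) 0 n0 n1 n2 i)
        (-(PowerSeries.C (1 / 2 : K) * (1 - PowerSeries.X))) PowerSeries.X) := by
  have hc := hc2 h2
  set x : PowerSeries K := -(PowerSeries.C (1 / 2 : K) * (1 - PowerSeries.X)) with hx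
  have hC : ∀ a : K, algebraMap K (PowerSeries K) a = PowerSeries.C a := fun a => rfl
  have h0 : BQ ((2 : ℝ) ^ (1 : ℤ)) (x - PowerSeries.C (1 : K) * PowerSeries.X) := by
    have : x - PowerSeries.C (1 : K) * PowerSeries.X
        = -(PowerSeries.C (1 / 2 : K) * (1 + PowerSeries.X)) := by
      rw [map_one, hx]
      linear_combination (PowerSeries.X) * hc
    rw [this]
    exact ((bq_half h2).mul bq_opX).neg.mono (by norm_num)
  have h1 : BQ ((2 : ℝ) ^ (1 : ℤ)) (x - PowerSeries.C (1 / 2 : K) * PowerSeries.X) := by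
    have : x - PowerSeries.C (1 / 2 : K) * PowerSeries.X = -(PowerSeries.C (1 / 2 : K)) := by
      rw [hx]; ring
    rw [this]
    exact (bq_half h2).neg.mono (by norm_num)
  have h3 : BQ ((2 : ℝ) ^ (1 : ℤ)) (x - PowerSeries.C (0 : K) * PowerSeries.X) := by
    rw [map_zero, zero_mul, sub_zero]
    exact ((bq_half h2).mul bq_omX).neg.mono (by norm_num)
  have key : ∀ a b e : ℕ, a + (b + e) ≤ D - 1 →
      BQ ((2 : ℝ) ^ (3 * ((a : ℤ) + b + e) - 2 * ((D - 1 : ℕ) : ℤ)))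
      (hev (D - 1) ((X - C (1 : K)) ^ a * ((X - C (1 / 2 : K)) ^ b * (X - C (0 : K)) ^ e)) x
        PowerSeries.X) := by
    intro a b e hab
    obtain ⟨r, hr⟩ : ∃ r, D - 1 = a + (b + e) + r := ⟨D - 1 - (a + (b + e)), by omega⟩
    rw [hr, hev_three, hC, hC, hC]
    have := ((h0.pow a).mul ((h1.pow b).mul (h3.pow e))).mul (BQ.X.pow (K := K) r)
    rw [zq, ← zpow_natCast, ← zpow_natCast, ← zpow_natCast, ← zpow_mul, ← zpow_mul, ← zpow_mul,
      ← zpow_add₀ (by norm_num), ← zpow_add₀ (by norm_num), ← zpow_add₀ (by norm_num)] at this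
    refine this.mono (zpow_le_zpow_right₀ (by norm_num) ?_)
    push_cast
    omega
  have hD1 : ((D - 1 : ℕ) : ℤ) = (D : ℤ) - 1 := by omega
  rw [hD1] at key
  unfold hm
  split_ifs with c1 c2
  · refine (key i n1 n2 (by omega)).mono (zpow_le_zpow_right₀ (by norm_num) ?_)
    unfold Apot Wc
    split_ifs <;> push_cast <;> omega
  · refine (key n0 (i - n0) n2 (by omega)).mono (zpow_le_zpow_right₀ (by norm_num) ?_)
    unfold Apot Wc
    split_ifs <;> push_cast <;> omega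
  · refine (key n0 n1 (i - n0 - n1) (by omega)).mono (zpow_le_zpow_right₀ (by norm_num) ?_)
    unfold Apot Wc
    split_ifs <;> push_cast <;> omega

end bq

/-! ### sum of the row potentials, special determinant -/

theorem sum_Apot (n0 n1 n2 n3 : ℕ) :
    2 * ∑ i ∈ range (n0 + (n1 + (n2 + n3))), Apot n0 n1 n2 i
      = 2 * n0 * (n0 + 1) + n1 * (n1 + 1) + 2 * n2 * (n2 + 1) + 3 * n3 * (n3 - 1) := by
  rw [sum_range_add, sum_range_add, sum_range_add]
  have g : ∀ n : ℕ, ∀ c a : ℤ, 2 * ∑ i ∈ range n, c * (a - i) = c * n * (2 * a + 1 - n) := by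
    intro n c a
    induction n with
    | zero => simp
    | succ n ih => rw [sum_range_succ, mul_add, ih]; push_cast; ring
  have h0 : ∑ i ∈ range n0, Apot n0 n1 n2 i = ∑ i ∈ range n0, 2 * ((n0 : ℤ) - i) := by
    refine sum_congr rfl fun i hi => ?_
    have := mem_range.1 hi
    unfold Apot
    split_ifs <;> first | rfl | omega
  have h1 : ∑ i ∈ range n1, Apot n0 n1 n2 (n0 + i) = ∑ i ∈ range n1, 1 * ((n1 : ℤ) - i) := by
    refine sum_congr rfl fun i hi => ?_
    have := mem_range.1 hi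
    unfold Apot
    split_ifs <;> first | omega | (push_cast [Nat.add_sub_cancel_left]; ring) | omega
  have h2 : ∑ i ∈ range n2, Apot n0 n1 n2 (n0 + (n1 + i))
      = ∑ i ∈ range n2, 2 * ((n2 : ℤ) - i) := by
    refine sum_congr rfl fun i hi => ?_
    have := mem_range.1 hi
    have e : n0 + (n1 + i) - n0 - n1 = i := by omega
    unfold Apot
    rw [e]
    split_ifs <;> first | rfl | omega
  have h3 : ∑ i ∈ range n3, Apot n0 n1 n2 (n0 + (n1 + (n2 + i)))
      = ∑ i ∈ range n3, (-3) * ((0 : ℤ) - i) := by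
    refine sum_congr rfl fun i hi => ?_
    have := mem_range.1 hi
    have e : n0 + (n1 + (n2 + i)) - n0 - n1 = n2 + i := by omega
    unfold Apot
    rw [e]
    split_ifs <;> first | omega | (push_cast; ring)
  rw [h0, h1, h2, h3, mul_add, mul_add, mul_add, g, g, g, g]
  ring

theorem det_hm_special {K : Type*} [Field K] (n0 n1 n2 D : ℕ) (h : n0 + n1 + n2 ≤ D)
    (h2 : (2 : K) ≠ 0) :
    (Matrix.of fun i j : Fin D => (hm (1 : K) (1 / 2) 0 n0 n1 n2 i).coeff j).det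
      = (1 / 2) ^ (n0 * n1 + n1 * n2) := by
  rw [det_hm _ _ _ _ _ _ _ h, pow_add]
  have : (1 : K) - 1 / 2 = 1 / 2 := by field_simp; norm_num
  rw [this, sub_zero, sub_zero, one_pow, mul_one]

end Vale.Agent.P030.H721
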