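import Mathlib
import Vale.Agent.P030.H721.Circ

/-!
# P030, the 2-adic place: the Hermite rows on the circle `|S| = 8` (for the tails)
-/

open Polynomial Finset

namespace Vale.Agent.P030.H721

section g8
set_option linter.unusedSectionVars false
variable {K : Type*} [NormedField K] [IsUltrametricDist K]

/-- Gauss norm on the circle `|S| = ρ` -/
def GP (ρ c : ℝ) (f : K[X]) : Prop := ∀ j, ‖f.coeff j‖ * ρ ^ j ≤ c

theorem GP.nonneg {ρ c : ℝ} {f : K[X]} (h : GP ρ c f) : 0 ≤ c := by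
  have := (norm_nonneg _).trans (by simpa using h 0)
  exact this

theorem GP.mono {ρ c d : ℝ} {f : K[X]} (h : GP ρ c f) (hcd : c ≤ d) : GP ρ d f := fun j =>
  (h j).trans hcd

theorem GP.mul {ρ c d : ℝ} (hρ : 0 < ρ) {f g : K[X]} (hf : GP ρ c f) (hg : GP ρ d g) :
    GP ρ (c * d) (f * g) := by
  intro n
  rw [Polynomial.coeff_mul, ← le_div_iff₀ (pow_pos hρ n)]
  refine IsUltrametricDist.norm_sum_le_of_forall_le_of_nonneg
    (div_nonneg (mul_nonneg hf.nonneg hg.nonneg) (by positivity)) fun p hp => ?_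
  rw [HasAntidiagonal.mem_antidiagonal] at hp
  rw [norm_mul, le_div_iff₀ (pow_pos hρ n), ← hp, pow_add]
  calc _ = (‖f.coeff p.1‖ * ρ ^ p.1) * (‖g.coeff p.2‖ * ρ ^ p.2) := by ring
    _ ≤ c * d := mul_le_mul (hf _) (hg _) (by positivity) hf.nonneg

theorem GP.one (ρ : ℝ) : GP ρ 1 (1 : K[X]) := by
  intro j
  rw [coeff_one]
  split_ifs with h
  · simp [h]
  · simp

theorem GP.pow {ρ c : ℝ} (hρ : 0 < ρ) {f : K[X]} (hf : GP ρ c f) (m : ℕ) :
    GP ρ (c ^ m) (f ^ m) := by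
  induction m with
  | zero => simpa using GP.one ρ
  | succ m ih => rw [pow_succ, pow_succ]; exact ih.mul hρ hf

theorem GP.lin {ρ : ℝ} (hρ : 0 < ρ) (a : K) (ha : ‖a‖ ≤ ρ) : GP ρ ρ (X - C a) := by
  intro j
  rw [coeff_sub, coeff_X, coeff_C]
  rcases j with _ | _ | j
  · simpa using ha
  · simp
  · simp [hρ.le]

theorem gp_hm {ρ : ℝ} (hρ : 0 < ρ) {α β γ : K} (ha : ‖α‖ ≤ ρ) (hb : ‖β‖ ≤ ρ) (hc : ‖γ‖ ≤ ρ)
    (n0 n1 n2 i : ℕ) :
    GP ρ (ρ ^ (if i < n0 then i + n1 + n2 else if i - n0 < n1 then n0 + (i - n0) + n2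
      else n0 + n1 + (i - n0 - n1))) (hm α β γ n0 n1 n2 i) := by
  have key : ∀ a b e : ℕ, GP ρ (ρ ^ (a + b + e))
      ((X - C α) ^ a * ((X - C β) ^ b * (X - C γ) ^ e)) := by
    intro a b e
    have := ((GP.lin hρ α ha).pow hρ a).mul hρ
      (((GP.lin hρ β hb).pow hρ b).mul hρ ((GP.lin hρ γ hc).pow hρ e))
    rwa [← pow_add, ← pow_add, ← add_assoc] at this
  unfold hm
  split_ifs with c1 c2
  · exact key i n1 n2
  · exact key n0 (i - n0) n2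
  · exact key n0 n1 (i - n0 - n1)

/-- `|h|_8 ≤ 2^(Apot + W_3)` (any three nodes of norm at most 8; in the variable `S` as well as
in `S - 1`) -/
theorem gp8_hm {α β γ : K} (ha : ‖α‖ ≤ 8) (hb : ‖β‖ ≤ 8) (hc : ‖γ‖ ≤ 8) (n0 n1 n2 i : ℕ) :
    GP 8 ((2 : ℝ) ^ (Apot n0 n1 n2 i + Wc n0 n1 n2 3)) (hm α β γ n0 n1 n2 i) := by
  refine (gp_hm (by norm_num) ha hb hc n0 n1 n2 i).mono ?_
  have h8 : (8 : ℝ) = (2 : ℝ) ^ (3 : ℤ) := by norm_num
  rw [h8, ← zpow_natCast, ← zpow_mul]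
  refine zpow_le_zpow_right₀ (by norm_num) ?_
  unfold Apot Wc
  split_ifs <;> push_cast <;> omega

end g8

end Vale.Agent.P030.H721
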